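import Mathlib
import Crest.Prelude.Def_AsymptoticConvexity
import Crest.Prelude.Def_DaugavetL1

set_option autoImplicit false
open MeasureTheory

namespace Crest.Agent.Helper74

open Crest.AnalysisR Crest.AnalysisR.L1Subspace

/-- The kernel of a continuous linear map into a finite-dimensional space is closed and of
finite codimension. -/
theorem ker_cof {V W : Type*} [NormedAddCommGroup V] [NormedSpace ℝ V]
    [NormedAddCommGroup W] [NormedSpace ℝ W] [FiniteDimensional ℝ W] (Φ : V →L[ℝ] W) :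
    IsClosed ((LinearMap.ker Φ.toLinearMap : Submodule ℝ V) : Set V) ∧
      FiniteDimensional ℝ (V ⧸ LinearMap.ker Φ.toLinearMap) := by
  refine ⟨Φ.isClosed_ker, ?_⟩
  exact LinearEquiv.finiteDimensional (Φ.toLinearMap.quotKerEquivRange).symm

variable {Ω : Type} [MeasurableSpace Ω]

theorem isCof_toRealBanach (P : Measure Ω) (E : Submodule ℝ (Lp ℝ 1 P))
    (hcl : IsClosed (E : Set (Lp ℝ 1 P))) (S : Submodule ℝ E) (h1 : IsClosed (S : Set E))
    (h2 : FiniteDimensional ℝ (E ⧸ S)) : (toRealBanach P E hcl).IsCof (S : Set E) :=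
  ⟨S, rfl, h1, h2⟩

theorem S0167_oneSidedGE (P : Measure Ω) [IsProbabilityMeasure P]
    (E : Submodule ℝ (Lp ℝ 1 P)) (hcl : IsClosed (E : Set (Lp ℝ 1 P))) (t : ℝ) (ht : 0 < t) :
    (toRealBanach P E hcl).OneSidedModulusGE (toRealBanach P E hcl).norm t (max 0 (t - 2)) := by
  show ∀ x : E, ‖x‖ = 1 → ∀ η : ℝ, 0 < η → ∃ F : Set E, (toRealBanach P E hcl).IsCof F ∧
    ∀ y ∈ F, ‖y‖ = 1 → max 0 (t - 2) - η ≤ ‖x + t • y‖ - 1
  intro x hx η hη
  have hx0 : ‖x‖ ≠ 0 := by rw [hx]; exact one_ne_zero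
  obtain ⟨g, hg1, hgx⟩ := exists_dual_vector ℝ x hx0
  refine ⟨((LinearMap.ker g.toLinearMap : Submodule ℝ E) : Set E),
    isCof_toRealBanach P E hcl _ (ker_cof g).1 (ker_cof g).2, ?_⟩
  intro y hy hy1
  have hgy : g y = 0 := hy
  have h1 : (1 : ℝ) ≤ ‖x + t • y‖ := by
    have := g.le_opNorm (x + t • y)
    rw [hg1, one_mul, map_add, map_smul, hgy, smul_zero, add_zero, hgx, hx] at this
    exact le_trans (le_abs_self _) (by simpa using this)
  have h2 : t - 1 ≤ ‖x + t • y‖ := by
    have := norm_sub_norm_le (t • y) (-x)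
    rw [norm_smul, hy1, norm_neg, hx, sub_neg_eq_add, Real.norm_eq_abs, abs_of_pos ht, mul_one,
      add_comm] at this
    exact this
  have : max 0 (t - 2) ≤ ‖x + t • y‖ - 1 := by
    apply max_le <;> linarith
  linarith

/-! ### The averaged (midpoint) lower bound `max (t/2) (t-1)` -/

/-- the sign function used to build the test functionals -/
noncomputable def sgn (r : ℝ) : ℝ := if 0 < r then 1 else if r < 0 then -1 else 0

theorem sgn_abs_le (r : ℝ) : |sgn r| ≤ 1 := by
  unfold sgn; split_ifs <;> simp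

theorem sgn_mul_self (r : ℝ) : sgn r * r = |r| := by
  unfold sgn; split_ifs with h1 h2
  · simp [abs_of_pos h1]
  · simp [abs_of_neg h2]
  · have : r = 0 := le_antisymm (not_lt.mp h1) (not_lt.mp h2)
    simp [this]

theorem measurable_sgn : Measurable sgn := by
  unfold sgn
  exact Measurable.ite (measurableSet_lt measurable_const measurable_id) measurable_const
    (Measurable.ite (measurableSet_lt measurable_id measurable_const) measurable_const
      measurable_const)

theorem sgn_mul_ge_neg_abs (g y : ℝ) : -|y| ≤ sgn g * y := by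
  have h := sgn_abs_le g
  have : |sgn g * y| ≤ |y| := by
    rw [abs_mul]; exact mul_le_of_le_one_left (abs_nonneg _) h
  exact (abs_le.mp this).1

theorem sgn_mul_ge_of_close (g y a : ℝ) (h : |y - g| ≤ a) : |y| - 2 * a ≤ sgn g * y := by
  have h1 : sgn g * y = |g| + sgn g * (y - g) := by rw [mul_sub, sgn_mul_self]; ring
  have h2 : -|y - g| ≤ sgn g * (y - g) := sgn_mul_ge_neg_abs g (y - g)
  have h3 : |y| ≤ |g| + |y - g| := by
    have := abs_add_le g (y - g)
    simpa using this
  linarith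

theorem integrable_sgn_mul (P : Measure Ω) (g y : Lp ℝ 1 P) :
    Integrable (fun z => sgn (g z) * y z) P :=
  (L1.integrable_coeFn y).bdd_mul (c := 1)
    ((measurable_sgn.comp (Lp.stronglyMeasurable g).measurable).aestronglyMeasurable)
    (Filter.Eventually.of_forall fun z => by simpa using sgn_abs_le (g z))

/-- The functional `y ↦ ∫ sign(g) · y` on `L¹`. -/
noncomputable def sgnFunctional (P : Measure Ω) (g : Lp ℝ 1 P) : Lp ℝ 1 P →L[ℝ] ℝ :=
  LinearMap.mkContinuous
    { toFun := fun y => ∫ z, sgn (g z) * y z ∂P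
      map_add' := by
        intro y y'
        rw [← integral_add (integrable_sgn_mul P g y) (integrable_sgn_mul P g y')]
        apply integral_congr_ae
        filter_upwards [Lp.coeFn_add y y'] with z hz
        rw [hz, Pi.add_apply, mul_add]
      map_smul' := by
        intro c y
        simp only [RingHom.id_apply, smul_eq_mul]
        rw [← integral_const_mul]
        apply integral_congr_ae
        filter_upwards [Lp.coeFn_smul c y] with z hz
        rw [hz, Pi.smul_apply, smul_eq_mul]; ring }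
    1 (by
      intro y
      simp only [LinearMap.coe_mk, AddHom.coe_mk, one_mul]
      calc ‖∫ z, sgn (g z) * y z ∂P‖ ≤ ∫ z, ‖sgn (g z) * y z‖ ∂P :=
            norm_integral_le_integral_norm _
        _ ≤ ∫ z, ‖y z‖ ∂P := by
            apply integral_mono (integrable_sgn_mul P g y).norm (L1.integrable_coeFn y).norm
            intro z
            simp only [norm_mul, Real.norm_eq_abs]
            exact mul_le_of_le_one_left (abs_nonneg _) (sgn_abs_le _)
        _ = ‖y‖ := (L1.norm_eq_integral_norm y).symm)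

theorem sgnFunctional_apply (P : Measure Ω) (g y : Lp ℝ 1 P) :
    sgnFunctional P g y = ∫ z, sgn (g z) * y z ∂P := rfl

/-- absolute continuity of the integral of one integrable function -/
theorem abs_cont (P : Measure Ω) {h : Ω → ℝ} (hh : Integrable h P) {ε : ℝ} (hε : 0 < ε) :
    ∃ δ : ℝ, 0 < δ ∧ ∀ A : Set Ω, MeasurableSet A → P A < ENNReal.ofReal δ →
      ∫ z in A, |h z| ∂P < ε := by
  have hfin : ∫⁻ z, ‖h z‖ₑ ∂P ≠ ⊤ := (hasFiniteIntegral_iff_enorm.mp hh.2).ne
  obtain ⟨δ, hδ, hδ'⟩ := exists_pos_setLIntegral_lt_of_measure_lt hfin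
    (ε := ENNReal.ofReal ε) (by simpa using hε)
  rcases eq_or_ne δ ⊤ with rfl | hδtop
  · refine ⟨1, one_pos, fun A _ hA => ?_⟩
    have := hδ' A (lt_of_lt_of_le hA le_top)
    rw [← ofReal_integral_norm_eq_lintegral_enorm hh.restrict] at this
    exact (ENNReal.ofReal_lt_ofReal_iff hε).mp this
  · refine ⟨δ.toReal, ENNReal.toReal_pos hδ.ne' hδtop, fun A _ hA => ?_⟩
    rw [ENNReal.ofReal_toReal hδtop] at hA
    have := hδ' A hA
    rw [← ofReal_integral_norm_eq_lintegral_enorm hh.restrict] at this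
    exact (ENNReal.ofReal_lt_ofReal_iff hε).mp this

theorem norm_add_smul_eq (P : Measure Ω) (u v : Lp ℝ 1 P) (t : ℝ) :
    ‖u + t • v‖ = ∫ z, |u z + t * v z| ∂P := by
  rw [L1.norm_eq_integral_norm]
  apply integral_congr_ae
  filter_upwards [Lp.coeFn_add u (t • v), Lp.coeFn_smul t v] with z h1 h2
  rw [h1, Pi.add_apply, h2, Pi.smul_apply, smul_eq_mul, Real.norm_eq_abs]

theorem norm_sub_smul_eq (P : Measure Ω) (u v : Lp ℝ 1 P) (t : ℝ) :
    ‖u - t • v‖ = ∫ z, |u z - t * v z| ∂P := by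
  rw [L1.norm_eq_integral_norm]
  apply integral_congr_ae
  filter_upwards [Lp.coeFn_sub u (t • v), Lp.coeFn_smul t v] with z h1 h2
  rw [h1, Pi.sub_apply, h2, Pi.smul_apply, smul_eq_mul, Real.norm_eq_abs]

/-- The measure-theoretic core of the midpoint bound. -/
theorem midpoint_core (P : Measure Ω) [IsProbabilityMeasure P] (x y g : Lp ℝ 1 P) (t a η₁ : ℝ)
    (ht : 0 < t) (ha : 0 < a) (hx : ‖x‖ = 1) (hy : ‖y‖ = 1)
    (hA : ∫ z in {z | a < |y z - g z|}, |x z| ∂P ≤ η₁)
    (hfun : ∫ z, sgn (g z) * y z ∂P = 0) :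
    2 + t - 2 * η₁ - 2 * t * a ≤ ‖x + t • y‖ + ‖x - t • y‖ := by
  set A : Set Ω := {z | a < |y z - g z|} with hAdef
  have hym : Measurable (y : Ω → ℝ) := (Lp.stronglyMeasurable y).measurable
  have hgm : Measurable (g : Ω → ℝ) := (Lp.stronglyMeasurable g).measurable
  have hAm : MeasurableSet A := measurableSet_lt measurable_const (hym.sub hgm).abs
  have hxi : Integrable (fun z => |x z|) P := (L1.integrable_coeFn x).abs
  have hyi : Integrable (fun z => |y z|) P := (L1.integrable_coeFn y).abs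
  have hsi := integrable_sgn_mul P g y
  have hx1 : ∫ z, |x z| ∂P = 1 := by
    rw [← hx, L1.norm_eq_integral_norm]; rfl
  have hy1 : ∫ z, |y z| ∂P = 1 := by
    rw [← hy, L1.norm_eq_integral_norm]; rfl
  -- split of the integrals
  have hxs := integral_add_compl hAm hxi
  have hys := integral_add_compl hAm hyi
  have hss := integral_add_compl hAm hsi
  -- the sign functional on `A`
  have h1 : -∫ z in A, |y z| ∂P ≤ ∫ z in A, sgn (g z) * y z ∂P := by
    rw [← integral_neg]
    exact setIntegral_mono_on hyi.neg.integrableOn hsi.integrableOn hAm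
      (fun z _ => sgn_mul_ge_neg_abs _ _)
  -- the sign functional on the complement of `A`
  have h2 : ∫ z in Aᶜ, |y z| ∂P - 2 * a ≤ ∫ z in Aᶜ, sgn (g z) * y z ∂P := by
    have hc : ∫ z in Aᶜ, (|y z| - 2 * a) ∂P ≤ ∫ z in Aᶜ, sgn (g z) * y z ∂P := by
      refine setIntegral_mono_on (hyi.sub (integrable_const _)).integrableOn hsi.integrableOn
        hAm.compl (fun z hz => ?_)
      have : |y z - g z| ≤ a := not_lt.mp hz
      exact sgn_mul_ge_of_close _ _ _ this
    have hc2 : ∫ z in Aᶜ, (|y z| - 2 * a) ∂P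
        = ∫ z in Aᶜ, |y z| ∂P - 2 * a * (P Aᶜ).toReal := by
      rw [integral_sub hyi.integrableOn (integrable_const _).integrableOn, setIntegral_const]
      simp [Measure.real, mul_comm]
    have hc3 : (P Aᶜ).toReal ≤ 1 := by
      have := prob_le_one (μ := P) (s := Aᶜ)
      exact ENNReal.toReal_le_of_le_ofReal zero_le_one (by simpa using this)
    have : 2 * a * (P Aᶜ).toReal ≤ 2 * a := by nlinarith
    linarith
  have hIA : 1 / 2 - a ≤ ∫ z in A, |y z| ∂P := by linarith
  -- the norms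
  have hsum : ‖x + t • y‖ + ‖x - t • y‖ = ∫ z, (|x z + t * y z| + |x z - t * y z|) ∂P := by
    rw [norm_add_smul_eq, norm_sub_smul_eq, ← integral_add]
    · exact ((L1.integrable_coeFn x).add ((L1.integrable_coeFn y).const_mul t)).abs
    · exact ((L1.integrable_coeFn x).sub ((L1.integrable_coeFn y).const_mul t)).abs
  have hFi : Integrable (fun z => |x z + t * y z| + |x z - t * y z|) P :=
    (((L1.integrable_coeFn x).add ((L1.integrable_coeFn y).const_mul t)).abs).add
      (((L1.integrable_coeFn x).sub ((L1.integrable_coeFn y).const_mul t)).abs)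
  have hFs := integral_add_compl hAm hFi
  have h3 : ∫ z in A, (2 * t) * |y z| ∂P ≤ ∫ z in A, (|x z + t * y z| + |x z - t * y z|) ∂P := by
    refine setIntegral_mono_on (hyi.const_mul _).integrableOn hFi.integrableOn hAm (fun z _ => ?_)
    have := abs_sub (x z + t * y z) (x z - t * y z)
    have e : x z + t * y z - (x z - t * y z) = 2 * t * y z := by ring
    rw [e, abs_mul, abs_of_pos (by positivity : (0:ℝ) < 2 * t)] at this
    exact this
  have h4 : ∫ z in Aᶜ, 2 * |x z| ∂P ≤ ∫ z in Aᶜ, (|x z + t * y z| + |x z - t * y z|) ∂P := by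
    refine setIntegral_mono_on (hxi.const_mul _).integrableOn hFi.integrableOn hAm.compl
      (fun z _ => ?_)
    have := abs_add_le (x z + t * y z) (x z - t * y z)
    have e : x z + t * y z + (x z - t * y z) = 2 * x z := by ring
    rw [e, abs_mul, abs_of_pos (by positivity : (0:ℝ) < 2)] at this
    exact this
  rw [integral_const_mul] at h3 h4
  rw [hsum, ← hFs]
  have : 2 * t * (1 / 2 - a) ≤ 2 * t * ∫ z in A, |y z| ∂P :=
    mul_le_mul_of_nonneg_left hIA (by positivity)
  nlinarith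

theorem S0167_midpointGE (P : Measure Ω) [IsProbabilityMeasure P]
    (E : Submodule ℝ (Lp ℝ 1 P)) (hcl : IsClosed (E : Set (Lp ℝ 1 P)))
    (htb : UnitBallTotallyBoundedInMeasure P E) (t : ℝ) (ht : 0 < t) :
    (toRealBanach P E hcl).MidpointModulusGE (toRealBanach P E hcl).norm t
      (max (t / 2) (t - 1)) := by
  show ∀ x : E, ‖x‖ = 1 → ∀ η : ℝ, 0 < η → ∃ F : Set E, (toRealBanach P E hcl).IsCof F ∧
    ∀ y ∈ F, ‖y‖ = 1 → max (t / 2) (t - 1) - η ≤ (‖x + t • y‖ + ‖x - t • y‖) / 2 - 1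
  intro x hx η hη
  have hxi : Integrable ((x : Lp ℝ 1 P) : Ω → ℝ) P := L1.integrable_coeFn _
  obtain ⟨δ, hδ, hδx⟩ := abs_cont P hxi (half_pos hη)
  set ε : ℝ := min δ (η / (2 * t)) with hεdef
  have hε0 : 0 < ε := lt_min hδ (div_pos hη (by positivity))
  obtain ⟨s, hs1, hs2⟩ := htb ε hε0
  let Φ : E →L[ℝ] (s → ℝ) :=
    ContinuousLinearMap.pi fun g => (sgnFunctional P g.1).comp E.subtypeL
  refine ⟨((LinearMap.ker Φ.toLinearMap : Submodule ℝ E) : Set E),
    isCof_toRealBanach P E hcl _ (ker_cof Φ).1 (ker_cof Φ).2, ?_⟩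
  intro y hy hy1
  -- the trivial bound `t - 1`
  have tri : 2 * t ≤ ‖x + t • y‖ + ‖x - t • y‖ := by
    have h := norm_sub_le (x + t • y) (x - t • y)
    have e : x + t • y - (x - t • y) = (2 * t) • y := by
      rw [mul_smul, two_smul]; abel
    rw [e, norm_smul, hy1, mul_one, Real.norm_eq_abs, abs_of_pos (by positivity)] at h
    exact h
  -- the bound `t / 2`
  have key : 2 + t - 2 * η ≤ ‖x + t • y‖ + ‖x - t • y‖ := by
    have hyn : ‖(y : Lp ℝ 1 P)‖ ≤ 1 := le_of_eq hy1
    obtain ⟨g, hgs, hdist⟩ := hs2 (y : Lp ℝ 1 P) y.2 hyn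
    have hne : {a : ℝ | 0 < a ∧ P {z | a < abs (((y : Lp ℝ 1 P) : Ω → ℝ) z - (g : Ω → ℝ) z)}
        < ENNReal.ofReal a}.Nonempty := by
      refine ⟨2, by norm_num, ?_⟩
      refine lt_of_le_of_lt prob_le_one ?_
      rw [show (1 : ENNReal) = ENNReal.ofReal 1 by simp]
      exact (ENNReal.ofReal_lt_ofReal_iff (by norm_num)).mpr (by norm_num)
    obtain ⟨a, ⟨ha0, haP⟩, haε⟩ := exists_lt_of_csInf_lt hne hdist
    have hAm : MeasurableSet {z | a < abs (((y : Lp ℝ 1 P) : Ω → ℝ) z - (g : Ω → ℝ) z)} :=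
      measurableSet_lt measurable_const
        (((Lp.stronglyMeasurable (y : Lp ℝ 1 P)).measurable.sub
          (Lp.stronglyMeasurable g).measurable).abs)
    have haδ : a < δ := lt_of_lt_of_le haε (min_le_left _ _)
    have hPA : P {z | a < abs (((y : Lp ℝ 1 P) : Ω → ℝ) z - (g : Ω → ℝ) z)}
        < ENNReal.ofReal δ :=
      lt_trans haP ((ENNReal.ofReal_lt_ofReal_iff hδ).mpr haδ)
    have hA := (hδx _ hAm hPA).le
    have hfun : ∫ z, sgn ((g : Ω → ℝ) z) * ((y : Lp ℝ 1 P) : Ω → ℝ) z ∂P = 0 := by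
      have hy' : Φ y = 0 := hy
      have := congrFun hy' ⟨g, hgs⟩
      exact this
    have core := midpoint_core P (x : Lp ℝ 1 P) (y : Lp ℝ 1 P) g t a (η / 2) ht ha0 hx hy1 hA hfun
    have hta : 2 * t * a ≤ η := by
      have h1 : a ≤ η / (2 * t) := le_trans haε.le (min_le_right _ _)
      have h2 : 2 * t * a ≤ 2 * t * (η / (2 * t)) :=
        mul_le_mul_of_nonneg_left h1 (by positivity)
      have h3 : 2 * t * (η / (2 * t)) = η := by field_simp
      linarith
    have e1 : ‖x + t • y‖ = ‖(x : Lp ℝ 1 P) + t • (y : Lp ℝ 1 P)‖ := rfl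
    have e2 : ‖x - t • y‖ = ‖(x : Lp ℝ 1 P) - t • (y : Lp ℝ 1 P)‖ := rfl
    rw [e1, e2]
    linarith
  have : max (t / 2) (t - 1) ≤ (‖x + t • y‖ + ‖x - t • y‖) / 2 - 1 + η := by
    apply max_le <;> linarith
  linarith

end Crest.Agent.Helper74
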